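import Vale.Agent.P176.FromCex
import Vale.Agent.P195.Main

namespace Vale.Agent.Results.P176.A_full

open CategoryTheory

theorem result :
    ∃ (k : Type) (_ : Field k) (A : Type) (_ : Ring A) (_ : Algebra k A),
      FiniteDimensional k A ∧
        ∀ n : ℕ, 0 < n → ∃ M : ModuleCat.{0} A, Module.Finite A M ∧
          projectiveDimension M = (n : WithBot ℕ∞) := by
  obtain ⟨c⟩ := Vale.Agent.P195.exists_cex
  obtain ⟨A, h1, h2, h3⟩ := Vale.Agent.P176.findim_infinite_of_cex c
  exact ⟨_, inferInstance, A, h1, h2, h3⟩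

end Vale.Agent.Results.P176.A_full
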